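import Vale.Agent.P199.Tower

theorem Vale.Agent.Results.P199.Counter.result :
    ∃ (D : Type) (_ : DivisionRing D),
      Algebra.IsAlgebraic (Subring.center D) D ∧
      ∃ S : Finset D,
        Algebra.adjoin (Subring.center D) (S : Set D) = ⊤ ∧
        Subfield.closure ((Subring.center D : Set D) ∪ (S : Set D)) = ⊤ ∧
        ¬ Module.Finite (Subring.center D) D := by
  classical
  obtain ⟨t⟩ := Vale.Agent.P199.Tower.nonempty
  have h := t.adjoin_top
  refine ⟨t.Q, inferInstance, t.algebraic,
    {t.π (Vale.Agent.P199.ge true), t.π (Vale.Agent.P199.ge false)}, ?_, ?_, t.not_finite⟩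
  · rw [Finset.coe_pair]
    exact h
  · rw [Finset.coe_pair, eq_top_iff]
    rintro q -
    have hq : q ∈ Algebra.adjoin (Subring.center t.Q)
        {t.π (Vale.Agent.P199.ge true), t.π (Vale.Agent.P199.ge false)} := h ▸ Algebra.mem_top
    induction hq using Algebra.adjoin_induction with
    | mem x hx => exact Subfield.subset_closure (Or.inr hx)
    | algebraMap r => exact Subfield.subset_closure (Or.inl r.2)
    | add x y _ _ hx hy => exact add_mem hx hy
    | mul x y _ _ hx hy => exact mul_mem hx hy
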